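import Vale.Agent.P170.Density

/-!
The satisfiability threshold conjecture: for every `k ≥ 3` random `k`-SAT has a limiting
threshold.
-/

namespace Vale.Agent.Results.P170.Threshold

open Filter Topology Vale.Agent.P170

/-- For every `k ≥ 3`, random `k`-SAT has a limiting threshold. -/
theorem result : ∀ k : ℕ, 3 ≤ k → ∃ α : ℝ, HasLimitingThreshold k α := by
  intro k hk
  obtain ⟨τ, hτ⟩ := thr_converges hk
  have hpos : (1 : ℝ) / 5 ≤ τ := by
    refine ge_of_tendsto hτ ?_
    have hnj : Tendsto (fun j : ℕ => 2 ^ j) atTop (atTop : Filter ℕ) :=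
      tendsto_pow_atTop_atTop_of_one_lt (by norm_num)
    filter_upwards [hnj.eventually_ge_atTop k] with j hj
    have h2 : (0 : ℝ) < ((2 ^ j : ℕ) : ℝ) := by positivity
    rw [le_div_iff₀ h2]
    by_contra hcon
    push Not at hcon
    have h3 := satProb_pos hk hj (m := thr k (2 ^ j)) (by linarith)
    have h4 := thr_spec (k := k) hj (by omega)
    linarith
  refine ⟨τ, threshold_of_subseq (by omega) (by linarith)
    (s := fun j => 2 ^ j) (pow_right_strictMono₀ (by norm_num)) (K := 2) ?_
    (along_two_pow hk hτ)⟩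
  intro j
  rw [pow_succ, mul_comm]

end Vale.Agent.Results.P170.Threshold
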